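import Vale.Agent.P032.Global
import Vale.Agent.P032.Meas
import Vale.Agent.P032.Open

namespace Vale.Agent.Results.P032.AtLeastSix

open Vale.Agent.P032

theorem result : ∀ k : ℕ, k ≤ 5 →
    ¬ ∃ c : EuclideanSpace ℝ (Fin 2) → Fin k,
      ∀ x y : EuclideanSpace ℝ (Fin 2), ‖x - y‖ = 1 → c x ≠ c y := by
  rintro k hk ⟨c, hc⟩
  let e : ℂ ≃ₗᵢ[ℝ] EuclideanSpace ℝ (Fin 2) := Complex.orthonormalBasisOneI.repr
  obtain ⟨A, a1, a2, a3⟩ := exists_meas (k := 5) (fun z => Fin.castLE hk (c (e z))) (by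
    intro x y hxy h
    refine hc (e x) (e y) ?_ (Fin.castLE_injective hk h)
    rw [← map_sub, e.norm_map, ← dist_eq_norm, hxy])
  obtain ⟨O, o1, o2, o3⟩ := exists_open A a1 a2 a3
  exact no_open_five O o1 o2 o3

end Vale.Agent.Results.P032.AtLeastSix
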